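import Vale.Agent.P079W.DB

open Filter Topology Set

namespace Vale.Agent.P079.Old.CoefficientFPP

/-- A real Banach space has the weak fixed point property for nonexpansive maps (and the fixed point
property if it is reflexive) as soon as, for some `a > 0`, there is `R < 1 + a` with
`liminf ‖u n + x‖ ≤ R` for all `‖x‖ ≤ a` and all weakly null sequences `u` of the unit ball whose
mutual distances are at most one. -/
theorem result (X : Type*) [NormedAddCommGroup X] [NormedSpace ℝ X] [CompleteSpace X]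
    (a R : ℝ) (ha : 0 < a) (hR : R < 1 + a)
    (hcoef : ∀ (x : X) (u : ℕ → X), ‖x‖ ≤ a → (∀ n, ‖u n‖ ≤ 1) → (∀ n m, ‖u n - u m‖ ≤ 1) →
      (∀ f : StrongDual ℝ X, Tendsto (fun n => f (u n)) atTop (𝓝 0)) →
      liminf (fun n => ‖u n + x‖) atTop ≤ R) :
    (∀ (C : Set X), C.Nonempty → Convex ℝ C → IsCompact (toWeakSpace ℝ X '' C) →
      ∀ T : C → C, (∀ a b : C, ‖(T a : X) - T b‖ ≤ ‖(a : X) - b‖) → ∃ x : C, T x = x) ∧
    (Function.Surjective (NormedSpace.inclusionInDoubleDual ℝ X) →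
      ∀ (C : Set X), C.Nonempty → IsClosed C → Bornology.IsBounded C → Convex ℝ C →
      ∀ T : C → C, (∀ a b : C, ‖(T a : X) - T b‖ ≤ ‖(a : X) - b‖) → ∃ x : C, T x = x) := by
  have hDB := Vale.Agent.P079.dbCoef_of_liminf hcoef
  refine ⟨fun C hne hconv hCc T hT =>
    Vale.Agent.P079.wfpp_subtype_of (Vale.Agent.P079.fixedPoint_of_dbCoef' ha hR hDB)
      C hne hconv hCc T hT,
    fun hrefl C hne hcl hbd hconv T hT =>
    Vale.Agent.P079.wfpp_subtype_of (Vale.Agent.P079.fixedPoint_of_dbCoef' ha hR hDB)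
      C hne hconv (Vale.Agent.P079.isCompact_image_toWeakSpace hrefl hcl hbd hconv) T hT⟩

end Vale.Agent.P079.Old.CoefficientFPP
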