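import Vale.Agent.P079.Final

open Filter Topology Set

namespace Vale.Agent.P079.Old.NearWorthFPP

/-- Every reflexive real Banach space whose weak-orthogonality coefficient is smaller than
`(sqrt 41 - 1) / 4` has the fixed point property for nonexpansive maps. -/
theorem result (X : Type*) [NormedAddCommGroup X] [NormedSpace ℝ X] [CompleteSpace X]
    (hrefl : Function.Surjective (NormedSpace.inclusionInDoubleDual ℝ X))
    (μ : ℝ) (hμ : μ < (Real.sqrt 41 - 1) / 4)
    (hworth : ∀ (x : X) (u : ℕ → X),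
      (∀ f : StrongDual ℝ X, Tendsto (fun n => f (u n)) atTop (𝓝 0)) →
      limsup (fun n => ‖u n + x‖) atTop ≤ μ * limsup (fun n => ‖u n - x‖) atTop)
    (C : Set X) (hne : C.Nonempty) (hcl : IsClosed C) (hbd : Bornology.IsBounded C)
    (hconv : Convex ℝ C) (T : C → C) (hT : ∀ a b : C, ‖(T a : X) - T b‖ ≤ ‖(a : X) - b‖) :
    ∃ x : C, T x = x := by
  have hs : Real.sqrt 41 ^ 2 = 41 := Real.sq_sqrt (by norm_num)
  have hs1 : 1 < Real.sqrt 41 := by
    rw [show (1 : ℝ) = Real.sqrt 1 by simp]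
    exact Real.sqrt_lt_sqrt (by norm_num) (by norm_num)
  have hμ0 : 0 ≤ max μ 0 := le_max_right _ _
  have hμ1 : max μ 0 < (Real.sqrt 41 - 1) / 4 := max_lt hμ (by linarith)
  have hμ2 : 2 * (max μ 0) ^ 2 + max μ 0 < 5 := by
    nlinarith [hs, hμ0, hμ1, mul_pos (sub_pos.2 hμ1) (sub_pos.2 hμ1)]
  exact Vale.Agent.P079.fpp_subtype hrefl hμ0 hμ2 (Vale.Agent.P079.nearWorth_of_limsup hworth)
    C hne hcl hbd hconv T hT

end Vale.Agent.P079.Old.NearWorthFPP
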